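import Vale.Agent.P100.H39.Iter

/-!
P100 (Henon-Lane-Emden conjecture, Q1).  No positive entire solution exists
(1) in the plane, for all positive exponents and all real weights;
(2) in every dimension, for all positive exponents, as soon as one of the weights is at most -2;
(3) in every dimension at least 3, for all positive exponents and real weights, as soon as
`p (B + 2) + (A + 2)` or `q (A + 2) + (B + 2)` is larger than `max (0, (p q - 1) (n - 2))`.
-/

namespace Vale.Agent.Results.P100.PlaneOrSingular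

open Vale.Agent.P100

theorem result :
    (∀ (p q A B : ℝ), 0 < p → 0 < q →
      ¬ ∃ u v : EuclideanSpace ℝ (Fin 2) → ℝ, IsEntireSolution 2 p q A B u v) ∧
    (∀ (n : ℕ) (p q A B : ℝ), 2 ≤ n → 0 < p → 0 < q → (A ≤ -2 ∨ B ≤ -2) →
      ¬ ∃ u v : EuclideanSpace ℝ (Fin n) → ℝ, IsEntireSolution n p q A B u v) ∧
    (∀ (n : ℕ) (p q A B : ℝ), 3 ≤ n → 0 < p → 0 < q →
      (max 0 ((p * q - 1) * ((n : ℝ) - 2)) < p * (B + 2) + (A + 2) ∨
        max 0 ((p * q - 1) * ((n : ℝ) - 2)) < q * (A + 2) + (B + 2)) →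
      ¬ ∃ u v : EuclideanSpace ℝ (Fin n) → ℝ, IsEntireSolution n p q A B u v) := by
  refine ⟨fun p q A B _ _ ⟨u, v, h⟩ => plane h, fun n p q A B hn hp hq hAB ⟨u, v, h⟩ => ?_,
    fun n p q A B hn hp hq hAB ⟨u, v, h⟩ => ?_⟩
  · rcases Nat.lt_or_ge 2 n with h2 | h2
    · rcases hAB with hA | hB
      · exact weight h2 hp hA h
      · exact weight h2 hq hB h.symm
    · obtain rfl : n = 2 := by omega
      exact plane h
  · rcases hAB with h1 | h1
    · exact absurd (necessary hn hp hq h) (not_le.2 h1)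
    · have h2 := necessary hn hq hp h.symm
      rw [mul_comm q p] at h2
      exact absurd h2 (not_le.2 h1)

end Vale.Agent.Results.P100.PlaneOrSingular
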