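import Vale.Agent.P100.H75.Core

/-!
# P100: Lane-Emden systems and solutions with congruent profiles
-/

open InnerProductSpace
open scoped RealInnerProductSpace Laplacian

namespace Vale.Agent.Results.P100.TranslateClass

/-- **Theorem** (every dimension `n`, all real exponents `p`, `q`). The Lane-Emden system
`-Δ u = v ^ p`, `-Δ v = u ^ q` has no positive classical solution on the whole space with `u`
bounded and increasing in a direction `e` which satisfies one of:

* the profiles `t ↦ (u, v) (x + t e)` of the pair are translates of one another;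
* `v` is a function of `u` and the direction of the gradient of `u` does not change along lines
  parallel to `e`;
* `v` is a function of `u` and the derivative of `u` in the direction `e` is a differentiable
  function of `u`. -/
theorem result (n : ℕ) (p q : ℝ) (u v : EuclideanSpace ℝ (Fin n) → ℝ)
    (hu : ContDiff ℝ 2 u) (_hv : ContDiff ℝ 2 v) (_hu0 : ∀ x, 0 < u x) (hv0 : ∀ x, 0 < v x)
    (hb : ∃ C : ℝ, ∀ x, u x ≤ C)
    (h1 : ∀ x, -(Δ u x) = v x ^ p) (_h2 : ∀ x, -(Δ v x) = u x ^ q)
    (e : EuclideanSpace ℝ (Fin n)) (he : ∀ x, 0 < fderiv ℝ u x e) :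
    ¬ ((∀ x y : EuclideanSpace ℝ (Fin n), ∃ c : ℝ, ∀ t : ℝ,
          u (y + t • e) = u (x + (t + c) • e) ∧ v (y + t • e) = v (x + (t + c) • e)) ∨
        (∃ F : ℝ → ℝ, ∀ x, v x = F (u x)) ∧
          ((∀ (x : EuclideanSpace ℝ (Fin n)) (s : ℝ), ∃ c : ℝ,
            fderiv ℝ u (x + s • e) = c • fderiv ℝ u x) ∨
          ∃ G : ℝ → ℝ, (∀ x, DifferentiableAt ℝ G (u x)) ∧ ∀ x, fderiv ℝ u x e = G (u x))) := by
  obtain ⟨C, hC⟩ := hb
  have hb' : ∀ x, |u x| ≤ C := fun x => by
    rw [abs_of_pos (_hu0 x)]
    exact hC x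
  have hneg : ∀ x, Δ u x ≤ 0 := fun x => by
    have h3 := h1 x
    have h4 := Real.rpow_pos_of_pos (hv0 x) p
    linarith
  rintro (h | ⟨⟨F, hF⟩, h⟩)
  · -- `v` is a function of `u`
    have hmono : StrictMono fun t : ℝ => u ((0 : EuclideanSpace ℝ (Fin n)) + t • e) :=
      strictMono_of_deriv_pos fun t => by
        rw [(Vale.Agent.P134.prof hu 0 t).deriv]
        exact he _
    have hex : ∃ F : ℝ → ℝ, ∀ x, v x = F (u x) := by
      refine ⟨fun s => v ((0 : EuclideanSpace ℝ (Fin n)) +
        (Function.invFun (fun t : ℝ => u ((0 : EuclideanSpace ℝ (Fin n)) + t • e)) s) • e),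
        fun x => ?_⟩
      obtain ⟨c, hc⟩ := h 0 x
      have h3 := hc 0
      simp only [zero_smul, add_zero, zero_add] at h3
      have h6 : (0 : EuclideanSpace ℝ (Fin n)) + c • e = c • e := zero_add _
      have h5 := Function.leftInverse_invFun hmono.injective c
      rw [h6] at h5
      rw [h3.1, h3.2]
      simp only
      rw [h5, h6]
    obtain ⟨F, hF⟩ := hex
    refine Vale.Agent.P100.H75.core hu he (Vale.Agent.P134.inv_of_translates hu he
      (fun x y => (h x y).imp fun c hc t => (hc t).1)) (f := fun s => -(F s ^ p)) (fun x => ?_)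
      hb' hneg
    rw [← hF, ← h1, neg_neg]
  · have hf : ∀ x, Δ u x = (fun s => -(F s ^ p)) (u x) := fun x => by
      simp only
      rw [← hF, ← h1, neg_neg]
    rcases h with h | ⟨G, hG, h⟩
    · exact Vale.Agent.P100.H75.core hu he (Vale.Agent.P134.inv_of_parallel he h)
        (f := fun s => -(F s ^ p)) hf hb' hneg
    · exact Vale.Agent.P100.H75.core hu he (Vale.Agent.P134.inv_of_function hu he hG h)
        (f := fun s => -(F s ^ p)) hf hb' hneg

end Vale.Agent.Results.P100.TranslateClass
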